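import Vale.Agent.P076.R2.H831V.Spec2

/-!
# P076 : anisotropic Sobolev spaces, conclusion for the data
-/

open MeasureTheory Complex FourierTransform Filter Topology Set
open scoped ENNReal NNReal

namespace Vale.Agent.P076.R2.H848V

open Vale.Agent.P076 Vale.Agent.P076.H791 Vale.Agent.P076.R2 Vale.Agent.P076.R2.H45
open Vale.Agent.P076.R2.H831 Vale.Agent.P076.R2.H831V

variable {n : ℕ}

theorem stAniF {n : ℕ} (hn : 1 ≤ n) (h : StAni n) : StAniF n := by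
  intro e ε he hε f g hfg hint
  set W : (Fin n → ℝ) → ℝ := fun ξ => |∑ i, ξ i * e i| ^ (1 / 2 + ε) +
      nrm (ξ - (∑ i, ξ i * e i) • e) ^ (1 + ε) with hW
  have hnn : Continuous fun ξ : Fin n → ℝ => nrm (ξ - (∑ i, ξ i * e i) • e) := by
    unfold nrm
    fun_prop
  have hWm : Measurable W := by
    have h1 : Measurable fun ξ : Fin n → ℝ => |∑ i, ξ i * e i| := by fun_prop
    have h2 := hnn.measurable
    exact (h1.pow_const _).add (h2.pow_const _)
  have hnrm0 : ∀ x : Fin n → ℝ, 0 ≤ nrm x := fun x => by unfold nrm; positivity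
  have hW0 : ∀ ξ, 0 ≤ W ξ := fun ξ => by
    have := hnrm0 (ξ - (∑ i, ξ i * e i) • e)
    simp only [hW]
    positivity
  have hMP := h e ε he hε
  have hw : Measurable fun ξ : Fin n → ℝ => ENNReal.ofReal
      (1 + |∑ i, ξ i * e i| ^ (1 / 2 + ε) + nrm (ξ - (∑ i, ξ i * e i) • e) ^ (1 + ε)) := by
    have : (fun ξ : Fin n → ℝ => ENNReal.ofReal
      (1 + |∑ i, ξ i * e i| ^ (1 / 2 + ε) + nrm (ξ - (∑ i, ξ i * e i) • e) ^ (1 + ε))) =
      fun ξ => ENNReal.ofReal (1 + W ξ) := by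
      funext ξ
      simp only [hW, add_assoc]
    rw [this]
    exact (measurable_const.add hWm).ennreal_ofReal
  refine strong_of_MP _ hw (fun ξ => ?_) hMP hfg ?_
  · rw [ENNReal.one_le_ofReal]
    have := hW0 ξ
    simp only [hW] at this
    linarith
  · have h1 : ∀ ξ, ENNReal.ofReal
        (1 + |∑ i, ξ i * e i| ^ (1 / 2 + ε) + nrm (ξ - (∑ i, ξ i * e i) • e) ^ (1 + ε)) =
        1 + ENNReal.ofReal (W ξ) := by
      intro ξ
      rw [add_assoc, ENNReal.ofReal_add zero_le_one (hW0 ξ), ENNReal.ofReal_one]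
    have h2 : ∫⁻ ξ, (‖g ξ‖ₑ ^ 2) < ⊤ := by
      have := hfg.2.1
      have h3 := MeasureTheory.eLpNorm_lt_top_iff_lintegral_rpow_enorm_lt_top (p := 2) (by norm_num) (by norm_num) |>.1 this.2
      simpa using h3
    have h4 : ∫⁻ ξ, ENNReal.ofReal (W ξ) * ‖g ξ‖ₑ ^ 2 < ⊤ := by
      have h5 := hint.lintegral_lt_top
      refine lt_of_le_of_lt (le_of_eq ?_) h5
      refine lintegral_congr fun ξ => ?_
      rw [ENNReal.ofReal_mul (hW0 ξ), ENNReal.ofReal_pow (norm_nonneg _), ofReal_norm]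
    have h6 : ∀ ξ, ENNReal.ofReal
        (1 + |∑ i, ξ i * e i| ^ (1 / 2 + ε) + nrm (ξ - (∑ i, ξ i * e i) • e) ^ (1 + ε)) *
          ‖g ξ‖ₑ ^ 2 = ‖g ξ‖ₑ ^ 2 + ENNReal.ofReal (W ξ) * ‖g ξ‖ₑ ^ 2 := by
      intro ξ
      rw [h1, add_mul, one_mul]
    have h7 : AEMeasurable fun ξ => ‖g ξ‖ₑ ^ 2 := hfg.2.1.1.enorm.pow_const 2
    rw [lintegral_congr h6, lintegral_add_left' h7]
    exact ENNReal.add_lt_top.2 ⟨h2, h4⟩

end Vale.Agent.P076.R2.H848V
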