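import Vale.Agent.P076.R2.H831V.Spec

/-!
# P076 : domination of the smoothed measures on the paraboloid
-/

open MeasureTheory Complex FourierTransform Filter Topology Set
open scoped ENNReal NNReal

namespace Vale.Agent.P076.R2.H848V

open Vale.Agent.P076 Vale.Agent.P076.H791 Vale.Agent.P076.R2.H45 Vale.Agent.P076.R2.H831
open Vale.Agent.P076.R2.H831.V2 Vale.Agent.P076.R2.H831V

variable {n : ℕ}

lemma gam_le {δ : ℝ} {a b ζ : E n} (h : ‖a - b‖ < δ) (w : ℝ) :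
    gam Real.pi (ζ - a) w ≤
      ENNReal.ofReal (Real.exp (Real.pi * δ ^ 2)) * gam (Real.pi / 2) (ζ - b) w := by
  unfold gam
  rw [← ENNReal.ofReal_mul (Real.exp_pos _).le, ← Real.exp_add]
  apply ENNReal.ofReal_le_ofReal
  apply Real.exp_le_exp.2
  have h1 : ‖ζ - b‖ ≤ ‖ζ - a‖ + ‖a - b‖ := by
    calc ‖ζ - b‖ = ‖(ζ - a) + (a - b)‖ := by congr 1; abel
      _ ≤ _ := norm_add_le _ _
  have n1 := norm_nonneg (a - b)
  have n2 := norm_nonneg (ζ - b)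
  have n3 := norm_nonneg (ζ - a)
  have h3 : ‖ζ - b‖ ^ 2 ≤ (‖ζ - a‖ + ‖a - b‖) ^ 2 := pow_le_pow_left₀ n2 h1 2
  have h4 : ‖a - b‖ ^ 2 ≤ δ ^ 2 := pow_le_pow_left₀ n1 h.le 2
  have h2 : ‖ζ - b‖ ^ 2 ≤ 2 * ‖ζ - a‖ ^ 2 + 2 * δ ^ 2 := by
    nlinarith [sq_nonneg (‖ζ - a‖ - ‖a - b‖)]
  have hpi := Real.pi_pos
  nlinarith [mul_le_mul_of_nonneg_left h2 hpi.le, mul_nonneg hpi.le (sq_nonneg w)]

lemma continuous_gam (c : ℝ) (ζ : E n) (μ : ℝ) :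
    Continuous fun η : E n => gam c (ζ - η) (‖η‖ ^ 2 - μ) := by
  unfold gam
  exact ENNReal.continuous_ofReal.comp (by fun_prop)

lemma continuous_gam' (c : ℝ) (ζ : E n) (w ρ : ℝ) :
    Continuous fun ω : Sp n => gam c (ζ - ρ • (ω : E n)) w := by
  unfold gam
  exact ENNReal.continuous_ofReal.comp (by fun_prop)

/-- the cap around `ω` -/
def cap (n : ℕ) (δ ρ : ℝ) (ω : Sp n) : Set (Sp n) :=
  {ω' : Sp n | ‖ρ • (ω : E n) - ρ • (ω' : E n)‖ < δ}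

lemma measurableSet_cap (δ ρ : ℝ) (ω : Sp n) : MeasurableSet (cap n δ ρ ω) := by
  have : IsOpen (cap n δ ρ ω) := isOpen_lt (by fun_prop) continuous_const
  exact this.measurableSet

lemma mem_cap_comm {δ ρ : ℝ} {ω ω' : Sp n} : ω' ∈ cap n δ ρ ω ↔ ω ∈ cap n δ ρ ω' := by
  unfold cap
  rw [mem_ofPred_eq, mem_ofPred_eq, norm_sub_rev]

lemma step1 {δ κ : ℝ} {ρ : ℝ} {m : ℝ≥0∞} {ω : Sp n}
    (hcap : ENNReal.ofReal κ ≤ m * sig n (cap n δ ρ ω)) (a : ℝ≥0∞) (ζ : E n) (w : ℝ) :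
    ENNReal.ofReal κ * (a * gam Real.pi (ζ - ρ • (ω : E n)) w) ≤
      m * (ENNReal.ofReal (Real.exp (Real.pi * δ ^ 2)) *
        ∫⁻ ω' in cap n δ ρ ω, a * gam (Real.pi / 2) (ζ - ρ • (ω' : E n)) w ∂sig n) := by
  have h1 : m * sig n (cap n δ ρ ω) * (a * gam Real.pi (ζ - ρ • (ω : E n)) w) =
      m * ∫⁻ _ in cap n δ ρ ω, (a * gam Real.pi (ζ - ρ • (ω : E n)) w) ∂sig n := by
    rw [setLIntegral_const]
    ring
  refine (mul_le_mul_left hcap _).trans ?_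
  rw [h1, ← lintegral_const_mul' _ _ ENNReal.ofReal_ne_top]
  refine mul_le_mul_right (setLIntegral_mono' (measurableSet_cap δ ρ ω) fun ω' hω' => ?_) _
  have hω : ‖ρ • (ω : E n) - ρ • (ω' : E n)‖ < δ := hω'
  calc a * gam Real.pi (ζ - ρ • (ω : E n)) w
      ≤ a * (ENNReal.ofReal (Real.exp (Real.pi * δ ^ 2)) *
          gam (Real.pi / 2) (ζ - ρ • (ω' : E n)) w) := mul_le_mul_right (gam_le hω w) _
    _ = _ := mul_left_comm _ _ _

lemma swap {δ ρ : ℝ} {f g : Sp n → ℝ≥0∞} (hf : Measurable f) (hg : Measurable g) :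
    ∫⁻ ω, ∫⁻ ω' in cap n δ ρ ω, f ω * g ω' ∂sig n ∂sig n =
      ∫⁻ ω', (∫⁻ ω in cap n δ ρ ω', f ω ∂sig n) * g ω' ∂sig n := by
  have hA : MeasurableSet {p : Sp n × Sp n | ‖ρ • (p.1 : E n) - ρ • (p.2 : E n)‖ < δ} := by
    have : IsOpen {p : Sp n × Sp n | ‖ρ • (p.1 : E n) - ρ • (p.2 : E n)‖ < δ} :=
      isOpen_lt (by fun_prop) continuous_const
    exact this.measurableSet
  have hfm : Measurable ({p : Sp n × Sp n | ‖ρ • (p.1 : E n) - ρ • (p.2 : E n)‖ < δ}.indicator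
      fun p => f p.1 * g p.2) :=
    ((hf.comp measurable_fst).mul (hg.comp measurable_snd)).indicator hA
  have h1 : ∀ ω, ∫⁻ ω' in cap n δ ρ ω, f ω * g ω' ∂sig n =
      ∫⁻ ω', ({p : Sp n × Sp n | ‖ρ • (p.1 : E n) - ρ • (p.2 : E n)‖ < δ}.indicator
      fun p => f p.1 * g p.2) (ω, ω') ∂sig n := by
    intro ω
    rw [← lintegral_indicator (measurableSet_cap δ ρ ω)]
    exact lintegral_congr fun ω' => rfl
  have h2 : ∀ ω', (∫⁻ ω in cap n δ ρ ω', f ω ∂sig n) * g ω' =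
      ∫⁻ ω, ({p : Sp n × Sp n | ‖ρ • (p.1 : E n) - ρ • (p.2 : E n)‖ < δ}.indicator
      fun p => f p.1 * g p.2) (ω, ω') ∂sig n := by
    intro ω'
    rw [← lintegral_mul_const _ hf, ← lintegral_indicator (measurableSet_cap δ ρ ω')]
    refine lintegral_congr fun ω => ?_
    by_cases hω : ω' ∈ cap n δ ρ ω
    · have h3 : (ω, ω') ∈ {p : Sp n × Sp n | ‖ρ • (p.1 : E n) - ρ • (p.2 : E n)‖ < δ} := hω
      rw [indicator_of_mem h3, indicator_of_mem (mem_cap_comm.1 hω)]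
    · have h3 : (ω, ω') ∉ {p : Sp n × Sp n | ‖ρ • (p.1 : E n) - ρ • (p.2 : E n)‖ < δ} := hω
      rw [indicator_of_notMem h3, indicator_of_notMem fun h => hω (mem_cap_comm.1 h)]
  simp_rw [h1, h2]
  exact lintegral_lintegral_swap hfm.aemeasurable

lemma sphere_le {δ κ : ℝ} (hκ : 0 < κ) {ρ : ℝ} {m : ℝ≥0∞} (hm : m ≠ ∞)
    (hcap : ∀ ω : Sp n, ENNReal.ofReal κ ≤ m * sig n (cap n δ ρ ω))
    {V G : E n → ℝ≥0∞} {θ : ℝ≥0∞} (hV : Measurable V) (hG : Measurable G)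
    (h : ∀ ω : Sp n, m * ∫⁻ ω' in cap n δ ρ ω, V (ρ • (ω' : E n)) ∂sig n ≤
        θ * G (ρ • (ω : E n))) (ζ : E n) (w : ℝ) :
    ∫⁻ ω : Sp n, V (ρ • (ω : E n)) * gam Real.pi (ζ - ρ • (ω : E n)) w ∂sig n ≤
      (ENNReal.ofReal κ)⁻¹ * (ENNReal.ofReal (Real.exp (Real.pi * δ ^ 2)) * (θ *
        ∫⁻ ω : Sp n, G (ρ • (ω : E n)) * gam (Real.pi / 2) (ζ - ρ • (ω : E n)) w ∂sig n)) := by
  have hκ0 : ENNReal.ofReal κ ≠ 0 := by
    rw [Ne, ENNReal.ofReal_eq_zero, not_le]; exact hκ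
  rw [← ENNReal.mul_le_iff_le_inv hκ0 ENNReal.ofReal_ne_top]
  have hVm : Measurable fun ω : Sp n => V (ρ • (ω : E n)) := hV.comp (by fun_prop)
  have hGm : Measurable fun ω : Sp n => G (ρ • (ω : E n)) := hG.comp (by fun_prop)
  have hgm := (continuous_gam' (Real.pi / 2) ζ w ρ).measurable
  have hgm1 := (continuous_gam' Real.pi ζ w ρ).measurable
  have hm1 : Measurable fun ω : Sp n => V (ρ • (ω : E n)) *
      gam Real.pi (ζ - ρ • (ω : E n)) w := hVm.mul hgm1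
  have hm2 : Measurable fun ω : Sp n => G (ρ • (ω : E n)) *
      gam (Real.pi / 2) (ζ - ρ • (ω : E n)) w := hGm.mul hgm
  rw [← lintegral_const_mul _ hm1]
  refine (lintegral_mono fun ω => step1 (hcap ω) (V (ρ • (ω : E n))) ζ w).trans ?_
  rw [lintegral_const_mul' _ _ hm, lintegral_const_mul' _ _ ENNReal.ofReal_ne_top,
    swap hVm hgm, mul_left_comm]
  refine mul_le_mul_right ?_ _
  rw [← lintegral_const_mul' _ _ hm, ← lintegral_const_mul _ hm2]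
  refine lintegral_mono fun ω => ?_
  rw [← mul_assoc]
  show _ ≤ θ * (G (ρ • (ω : E n)) * gam (Real.pi / 2) (ζ - ρ • (ω : E n)) w)
  rw [← mul_assoc]
  exact mul_le_mul_left (h ω) _

theorem stDom (hn : 1 ≤ n) (hC : StCap n) : StDom n := by
  intro δ hδ
  obtain ⟨κ, hκ, hcap⟩ := hC δ hδ
  refine ⟨Real.toNNReal (Real.exp (Real.pi * δ ^ 2) / κ), ?_⟩
  intro V G θ hV hG hV0 h ζ μ
  have hC' : ((Real.toNNReal (Real.exp (Real.pi * δ ^ 2) / κ) : ℝ≥0) : ℝ≥0∞) =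
      (ENNReal.ofReal κ)⁻¹ * ENNReal.ofReal (Real.exp (Real.pi * δ ^ 2)) := by
    have e : ((Real.toNNReal (Real.exp (Real.pi * δ ^ 2) / κ) : ℝ≥0) : ℝ≥0∞) =
      ENNReal.ofReal (Real.exp (Real.pi * δ ^ 2) / κ) := rfl
    rw [e, ENNReal.ofReal_div_of_pos hκ, div_eq_mul_inv, mul_comm]
  have hm1 : Measurable fun η : E n => V η * gam Real.pi (ζ - η) (‖η‖ ^ 2 - μ) :=
    hV.mul (continuous_gam _ _ _).measurable
  have hm2 : Measurable fun η : E n => G η * gam (Real.pi / 2) (ζ - η) (‖η‖ ^ 2 - μ) :=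
    hG.mul (continuous_gam _ _ _).measurable
  have hnorm : ∀ (ρ : Ioi (0 : ℝ)) (ω : Sp n), ‖ρ.1 • (ω : E n)‖ = ρ.1 := by
    intro ρ ω
    have h1 : ‖(ω : E n)‖ = 1 := by simp
    rw [norm_smul, h1, mul_one, Real.norm_eq_abs, abs_of_pos ρ.2]
  unfold KV
  rw [lint_polar hn hm1, lint_polar hn hm2, hC']
  have hmeas : Measurable fun ρ : Ioi (0 : ℝ) => ∫⁻ ω : Sp n, G (ρ.1 • (ω : E n)) *
      gam (Real.pi / 2) (ζ - ρ.1 • (ω : E n)) (‖ρ.1 • (ω : E n)‖ ^ 2 - μ) ∂sig n := by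
    have h1 : Measurable fun p : Ioi (0 : ℝ) × Sp n => G (p.1.1 • (p.2 : E n)) *
      gam (Real.pi / 2) (ζ - p.1.1 • (p.2 : E n)) (‖p.1.1 • (p.2 : E n)‖ ^ 2 - μ) :=
      hm2.comp (f := fun p : Ioi (0 : ℝ) × Sp n => p.1.1 • (p.2 : E n)) (by fun_prop)
    exact h1.lintegral_prod_right'
  rw [mul_assoc, mul_assoc, ← lintegral_const_mul _ hmeas, ← lintegral_const_mul _
    (hmeas.const_mul _), ← lintegral_const_mul _ ((hmeas.const_mul _).const_mul _)]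
  refine lintegral_mono fun ρ => ?_
  show (∫⁻ ω : Sp n, V (ρ.1 • (ω : E n)) *
      gam Real.pi (ζ - ρ.1 • (ω : E n)) (‖ρ.1 • (ω : E n)‖ ^ 2 - μ) ∂sig n) ≤ _
  simp only [hnorm]
  by_cases hρ : 1 ≤ ρ.1
  · exact sphere_le hκ ENNReal.ofReal_ne_top (hcap ρ.1 hρ) hV hG (h ρ.1 hρ) ζ _
  · have h0 : ∀ ω : Sp n, V (ρ.1 • (ω : E n)) = 0 := fun ω =>
      hV0 _ (by rw [hnorm]; exact not_le.1 hρ)
    simp only [h0, zero_mul, lintegral_zero, zero_le]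

end Vale.Agent.P076.R2.H848V
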